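import Crest.Agent.H7.WS.Ops

/-! Unicellularity of bilateral weighted shifts with fast decaying weights (Domar type theorem),
by a dominant term argument. -/

set_option autoImplicit false

open Filter Topology Real
open Crest.AnalysisR.TwoAdic

namespace Crest.Agent.H5.HS

theorem maxterm (G : ℕ → ℝ) (K C : ℝ) (hG : ∀ k : ℕ, G k ≤ K * exp (C * k - 5 * k ^ 2)) (k0 : ℕ)
    (hk0 : 0 < G k0) :
    ∃ (κ : ℝ → ℕ) (D : ℝ), (∀ s, 0 ≤ s → ∀ k : ℕ, G k * exp (s * k) ≤ G (κ s) * exp (s * κ s)) ∧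
      (∀ s, 0 ≤ s → 5 * (κ s : ℝ) ≤ s + D) ∧ ∀ s t, 0 ≤ s → s < t → κ s ≤ κ t := by
  have hK : 0 < K := (mul_pos_iff_of_pos_right (exp_pos _)).1 (hk0.trans_le (hG k0))
  set L := |Real.log (G k0 / K)|
  have hb : ∀ s, 0 ≤ s → ∀ k : ℕ, G k0 * exp (s * k0) ≤ G k * exp (s * k) →
      5 * (k : ℝ) ≤ s + (|C| + L) := fun s hs k h => by
    have h1 : G k0 ≤ G k0 * exp (s * k0) :=
      le_mul_of_one_le_right hk0.le (one_le_exp (by positivity))
    have h2 : G k * exp (s * k) ≤ K * exp (C * k - 5 * k ^ 2 + s * k) := by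
      rw [exp_add, ← mul_assoc]
      exact mul_le_mul_of_nonneg_right (hG k) (exp_pos _).le
    have h3 : G k0 / K ≤ exp (C * k - 5 * k ^ 2 + s * k) := by
      rw [div_le_iff₀ hK]; linarith
    have h4 : Real.log (G k0 / K) ≤ C * k - 5 * k ^ 2 + s * k :=
      (Real.log_le_iff_le_exp (by positivity)).2 h3
    have h5 : -L ≤ Real.log (G k0 / K) := neg_abs_le _
    have hL : 0 ≤ L := abs_nonneg _
    have hC := le_abs_self C
    rcases Nat.eq_zero_or_pos k with rfl | hk
    · have := abs_nonneg C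
      simp only [Nat.cast_zero]; linarith
    · have hk' : (1 : ℝ) ≤ k := by exact_mod_cast hk
      by_contra hc
      push Not at hc
      nlinarith
  have hex : ∀ s : ℝ, ∃ κ : ℕ, 0 ≤ s → ∀ k : ℕ, G k * exp (s * k) ≤ G κ * exp (s * κ) := fun s => by
    obtain ⟨N, hN⟩ := exists_nat_ge (s + (|C| + L))
    obtain ⟨κ, -, hκ⟩ := Finset.exists_max_image (Finset.range (N + k0 + 1))
      (fun k : ℕ => G k * exp (s * k)) ⟨0, by simp⟩
    refine ⟨κ, fun hs k => ?_⟩
    by_cases hk : k < N + k0 + 1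
    · exact hκ k (Finset.mem_range.2 hk)
    · refine le_trans (le_of_not_ge fun h => ?_) (hκ k0 (Finset.mem_range.2 (by omega)))
      have := hb s hs k h
      have h2 : ((N + k0 + 1 : ℕ) : ℝ) ≤ k := by exact_mod_cast not_lt.1 hk
      push_cast at h2
      have : (0 : ℝ) ≤ k0 := by positivity
      have : (0 : ℝ) ≤ N := by positivity
      linarith
  choose κ hκ using hex
  refine ⟨κ, |C| + L, hκ, fun s hs => hb s hs _ (hκ s hs k0), fun s t hs hst => ?_⟩
  have ht : 0 ≤ t := hs.trans hst.le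
  have hp : ∀ r, 0 ≤ r → 0 < G (κ r) := fun r hr =>
    (mul_pos_iff_of_pos_right (exp_pos _)).1 ((mul_pos hk0 (exp_pos _)).trans_le (hκ r hr k0))
  have h1 := hκ s hs (κ t)
  have h2 := hκ t ht (κ s)
  have h3 := mul_le_mul h1 h2 (mul_pos (hp s hs) (exp_pos _)).le (mul_pos (hp s hs) (exp_pos _)).le
  have h4 : G (κ s) * G (κ t) * exp (s * κ t + t * κ s) ≤
      G (κ s) * G (κ t) * exp (s * κ s + t * κ t) := by
    rw [exp_add, exp_add]; linarith
  have h5 := exp_le_exp.1 (le_of_mul_le_mul_left h4 (mul_pos (hp s hs) (hp t ht)))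
  have h6 : (κ s : ℝ) ≤ κ t := by nlinarith
  exact_mod_cast h6

theorem gap (F G : ℕ → ℝ) (K K' C : ℝ) (hF : ∀ k : ℕ, F k ≤ K * exp (C * k - 5 * k ^ 2))
    (hG : ∀ k : ℕ, G k ≤ K' * exp (C * k - 5 * k ^ 2)) (m0 k0 : ℕ) (hm0 : 0 < F m0)
    (hk0 : 0 < G k0) (s0 : ℝ) (hs0 : 0 ≤ s0) :
    ∃ (σ : ℝ) (μ κ : ℕ), s0 ≤ σ ∧ (∀ m : ℕ, F m * exp (σ * m) ≤ F μ * exp (σ * μ)) ∧
      (∀ m : ℕ, F m * exp ((σ + 2) * m) ≤ F μ * exp ((σ + 2) * μ)) ∧
      (∀ m : ℕ, G m * exp (σ * m) ≤ G κ * exp (σ * κ)) ∧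
      (∀ m : ℕ, G m * exp ((σ + 2) * m) ≤ G κ * exp ((σ + 2) * κ)) := by
  obtain ⟨μ, D, f1, f2, f3⟩ := maxterm F K C hF m0 hm0
  obtain ⟨κ, D', g1, g2, g3⟩ := maxterm G K' C hG k0 hk0
  have hs : ∀ t : ℕ, 0 ≤ s0 + 2 * (t : ℝ) := fun t => by positivity
  have : ∃ t : ℕ, μ (s0 + 2 * t + 2) = μ (s0 + 2 * t) ∧ κ (s0 + 2 * t + 2) = κ (s0 + 2 * t) := by
    by_contra hc
    push Not at hc
    have hN : ∀ t : ℕ, t ≤ μ (s0 + 2 * t) + κ (s0 + 2 * t) := fun t => by
      induction t with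
      | zero => omega
      | succ t ih =>
        have e : s0 + 2 * ((t + 1 : ℕ) : ℝ) = s0 + 2 * t + 2 := by push_cast; ring
        rw [e]
        have a1 := f3 (s0 + 2 * t) (s0 + 2 * t + 2) (hs t) (by linarith)
        have a2 := g3 (s0 + 2 * t) (s0 + 2 * t + 2) (hs t) (by linarith)
        have a3 := hc t
        omega
    obtain ⟨t, ht⟩ := exists_nat_gt (2 * s0 + D + D')
    have a1 := f2 _ (hs t)
    have a2 := g2 _ (hs t)
    have a3 : (t : ℝ) ≤ μ (s0 + 2 * t) + κ (s0 + 2 * t) := by exact_mod_cast hN t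
    linarith
  obtain ⟨t, h1, h2⟩ := this
  refine ⟨s0 + 2 * t, μ (s0 + 2 * t), κ (s0 + 2 * t), by have := hs t; have := hs 0; linarith [
    (by positivity : (0 : ℝ) ≤ t)], f1 _ (hs t), ?_, g1 _ (hs t), ?_⟩
  · rw [← h1]; exact f1 _ (by linarith [hs t])
  · rw [← h2]; exact g1 _ (by linarith [hs t])

theorem win_ge {a A : ℤ → ℝ} (hA : ∀ j, A (j + 1) = A j + a j) (c : ℝ) (x : ℤ) (n : ℕ)
    (h : ∀ l, x ≤ l → l < x + n → c ≤ a l) : c * n ≤ A (x + n) - A x := by
  induction n with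
  | zero => simp
  | succ n ih =>
    have h1 := ih fun l h1 h2 => h l h1 (by push_cast; omega)
    have h2 := h (x + n) (by omega) (by push_cast; omega)
    push_cast
    rw [← add_assoc, hA]
    linarith

theorem win_le {a A : ℤ → ℝ} (hA : ∀ j, A (j + 1) = A j + a j) (c : ℝ) (x : ℤ) (n : ℕ)
    (h : ∀ l, x ≤ l → l < x + n → a l ≤ c) : A (x + n) - A x ≤ c * n := by
  have := win_ge (a := fun j => -a j) (A := fun j => -A j) (fun j => by rw [hA]; ring) (-c) x n
    fun l h1 h2 => neg_le_neg (h l h1 h2)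
  linarith

theorem hasSum_geo : HasSum (fun d : ℤ => (1 / 7 : ℝ) ^ d.natAbs) (4 / 3) := by
  have h := hasSum_geometric_of_lt_one (r := (1 / 7 : ℝ)) (by norm_num) (by norm_num)
  have h1 : HasSum (fun n : ℕ => (1 / 7 : ℝ) ^ (n : ℤ).natAbs) (1 - 1 / 7)⁻¹ := by simpa using h
  have h2 : HasSum (fun n : ℕ => (1 / 7 : ℝ) ^ (-((n : ℤ) + 1)).natAbs) (1 / 7 * (1 - 1 / 7)⁻¹) := by
    have e : (fun n : ℕ => (1 / 7 : ℝ) ^ (-((n : ℤ) + 1)).natAbs) =
        fun n : ℕ => 1 / 7 * (1 / 7 : ℝ) ^ n := funext fun n => by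
      rw [show (-((n : ℤ) + 1)).natAbs = n + 1 by omega, pow_succ']
    rw [e]
    exact h.mul_left (1 / 7)
  have := HasSum.of_nat_of_neg_add_one (f := fun d : ℤ => (1 / 7 : ℝ) ^ d.natAbs) h1 h2
  convert this using 1
  norm_num

theorem exp_le_geo (n : ℕ) : exp (-2 * n) ≤ (1 / 7 : ℝ) ^ n := by
  rw [mul_comm, exp_nat_mul]
  refine pow_le_pow_left₀ (exp_pos _).le ?_ n
  rw [exp_neg, one_div]
  refine inv_anti₀ (by norm_num) ?_
  have h := Real.exp_one_gt_d9
  have : exp 2 = exp 1 * exp 1 := by rw [← exp_add]; norm_num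
  nlinarith

theorem mul_exp_le {x y s t : ℝ} (h : x * exp s ≤ y * exp t) : x ≤ y * exp (t - s) := by
  rw [exp_sub, ← mul_div_assoc, le_div_iff₀ (exp_pos _)]; exact h

theorem core (a A : ℤ → ℝ) (hA : ∀ j, A (j + 1) = A j + a j) (h1 : ∀ j : ℤ, 10 * |(j : ℝ)| ≤ a j)
    (h2 : ∀ i j : ℤ, 0 ≤ i → i ≤ j → a i ≤ a j) (h3 : ∀ i j : ℤ, j ≤ i → i < 0 → a i ≤ a j)
    (U W : ℤ → ℝ) (hU : ∀ j, 0 ≤ U j) (hW : ∀ j, 0 ≤ W j) (SU SW : ℝ)
    (sU : HasSum (fun j => U j ^ 2) SU) (sW : HasSum (fun j => W j ^ 2) SW) (T : ℕ → ℤ → ℂ)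
    (hT : ∀ n j, ‖T n j‖ = U j * W (j + n) * exp (A j - A (j + n))) (hs : ∀ n, HasSum (T n) 0)
    (p k : ℤ) (hpk : p < k) (hUp : 0 < U p) (hWk : 0 < W k) : False := by
  obtain ⟨k0, rfl⟩ : ∃ k0 : ℕ, k = p + k0 := ⟨(k - p).toNat, by omega⟩
  have hk0 : (1 : ℝ) ≤ k0 := by exact_mod_cast (by omega : 1 ≤ k0)
  have bU : ∀ j, U j ≤ 1 + SU := fun j => by
    have := le_hasSum sU j fun i _ => sq_nonneg _
    nlinarith [sq_nonneg (U j - 1)]
  have bW : ∀ j, W j ≤ 1 + SW := fun j => by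
    have := le_hasSum sW j fun i _ => sq_nonneg _
    nlinarith [sq_nonneg (W j - 1)]
  have hSU : 0 ≤ SU := sU.nonneg fun i => sq_nonneg _
  have hSW : 0 ≤ SW := sW.nonneg fun i => sq_nonneg _
  set F : ℕ → ℝ := fun m => U (p - m) * exp (A (p - m) - A p) with hFd
  set G : ℕ → ℝ := fun m => W (p + m) * exp (A p - A (p + m)) with hGd
  have F0 : ∀ m, 0 ≤ F m := fun m => mul_nonneg (hU _) (exp_pos _).le
  have G0 : ∀ m, 0 ≤ G m := fun m => mul_nonneg (hW _) (exp_pos _).le
  set C : ℝ := 5 + 10 * |(p : ℝ)|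
  have hF : ∀ m : ℕ, F m ≤ (1 + SU) * exp (C * m - 5 * m ^ 2) := fun m => by
    refine mul_le_mul (bU _) (exp_le_exp.2 ?_) (exp_pos _).le (by positivity)
    induction m with
    | zero => simp
    | succ m ih =>
      have e := hA (p - (m + 1 : ℕ))
      rw [show p - ((m + 1 : ℕ) : ℤ) + 1 = p - m by push_cast; ring] at e
      have e2 := h1 (p - (m + 1 : ℕ))
      have e3 : (m : ℝ) - |(p : ℝ)| ≤ |((p - (m + 1 : ℕ) : ℤ) : ℝ)| := by
        push_cast
        linarith [neg_abs_le ((p : ℝ) - (m + 1)), le_abs_self (p : ℝ)]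
      simp only [C] at ih ⊢
      push_cast at ih e e2 e3 ⊢
      nlinarith
  have hG : ∀ m : ℕ, G m ≤ (1 + SW) * exp (C * m - 5 * m ^ 2) := fun m => by
    refine mul_le_mul (bW _) (exp_le_exp.2 ?_) (exp_pos _).le (by positivity)
    induction m with
    | zero => simp
    | succ m ih =>
      have e := hA (p + m)
      have e2 := h1 (p + m)
      have e3 : (m : ℝ) - |(p : ℝ)| ≤ |((p + m : ℤ) : ℝ)| := by
        push_cast
        linarith [le_abs_self ((p : ℝ) + m), neg_abs_le (p : ℝ)]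
      simp only [C] at ih ⊢
      push_cast at ih e e2 e3 ⊢
      rw [← add_assoc]
      nlinarith
  have hF0 : 0 < F 0 := mul_pos (by simpa using hUp) (exp_pos _)
  have hG0 : 0 < G k0 := mul_pos hWk (exp_pos _)
  obtain ⟨M, hM⟩ := ((Set.finite_Icc (-|p|) |p|).image a).bddAbove
  have hM' : ∀ l, |l| ≤ |p| → a l ≤ M := fun l hl => hM ⟨l, abs_le.1 hl, rfl⟩
  have t0 : ∀ c d : ℝ, 0 < d → ∀ᶠ s in atTop, c * exp (-s) ≤ d := fun c d hd => by
    have := (tendsto_exp_neg_atTop_nhds_zero.const_mul c)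
    rw [mul_zero] at this
    exact this.eventually (ge_mem_nhds hd)
  obtain ⟨s0, hs0⟩ := eventually_atTop.1 ((eventually_ge_atTop (0 : ℝ)).and
    ((eventually_ge_atTop M).and ((t0 ((1 + SU) * exp (a p)) _ hF0).and
    ((t0 ((1 + SW) * exp (a (p - 1))) _ hG0).and
    (t0 (SU + SW) (F 0 * G k0 / 2) (by positivity))))))
  obtain ⟨σ, μ, κ, hσ, f1, f2, g1, g2⟩ := gap F G _ _ C hF hG 0 k0 hF0 hG0 s0 (hs0 s0 le_rfl).1
  obtain ⟨σ0, σM, σU, σW, σB⟩ := hs0 σ hσ
  have fμ : F 0 ≤ F μ * exp (σ * μ) := by simpa using f1 0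
  have gκ : G k0 * exp σ ≤ G κ * exp (σ * κ) :=
    (mul_le_mul_of_nonneg_left (exp_le_exp.2 (by nlinarith)) hG0.le).trans (g1 k0)
  have gκ' : G k0 ≤ G κ * exp (σ * κ) :=
    (le_mul_of_one_le_right hG0.le (one_le_exp σ0)).trans gκ
  have Fμ : 0 < F μ := (mul_pos_iff_of_pos_right (exp_pos _)).1 (hF0.trans_le fμ)
  have Gκ : 0 < G κ := (mul_pos_iff_of_pos_right (exp_pos _)).1 (hG0.trans_le gκ')
  set n := μ + κ with hn
  have hnR : (n : ℝ) = μ + κ := by simp [hn]
  -- pointwise bound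
  have key : ∀ i : ℤ, ‖T n i‖ ≤ F μ * G κ * exp (-2 * ((i - (p - μ)).natAbs : ℕ)) ∨
      σ * n ≤ A (i + n) - A i := fun i => by
    rcases lt_or_ge p i with hi | hi
    · obtain ⟨t, rfl⟩ : ∃ t : ℕ, i = p + 1 + t := ⟨(i - p - 1).toNat, by omega⟩
      by_cases hsm : ∀ l, p + 1 ≤ l → l < p + 1 + t → a l ≤ σ
      · left
        have e1 := win_le hA σ (p + 1) t hsm
        rw [hA] at e1
        have e2 := mul_exp_le (g2 (1 + t + n))
        have e3 : ‖T n (p + 1 + t)‖ = U (p + 1 + t) * exp (A (p + 1 + t) - A p) * G (1 + t + n) := by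
          rw [hT]
          simp only [G]
          rw [show p + ((1 + t + n : ℕ) : ℤ) = p + 1 + t + n by push_cast; ring,
            mul_mul_mul_comm, ← exp_add]
          congr 2; ring
        have e4 : U (p + 1 + t) * exp (A (p + 1 + t) - A p) ≤
            F μ * exp (σ * μ) * exp (σ * t + σ) := by
          calc _ ≤ (1 + SU) * exp (a p + -σ + (σ * t + σ)) :=
                mul_le_mul (bU _) (exp_le_exp.2 (by linarith)) (exp_pos _).le (by positivity)
            _ = (1 + SU) * exp (a p) * exp (-σ) * exp (σ * t + σ) := by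
                rw [exp_add, exp_add (a p)]; ring
            _ ≤ _ := mul_le_mul_of_nonneg_right (σU.trans fμ) (exp_pos _).le
        rw [e3]
        refine (mul_le_mul e4 e2 (G0 _) (by positivity)).trans (le_of_eq ?_)
        rw [show (p + 1 + t - (p - μ)).natAbs = 1 + t + μ by omega, mul_assoc (F μ), ← exp_add,
          mul_mul_mul_comm, ← exp_add]
        congr 2
        push_cast
        rw [hnR]; ring
      · right
        push Not at hsm
        obtain ⟨l, l1, l2, l3⟩ := hsm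
        have l0 : 0 ≤ l := by
          by_contra hc
          have := hM' l (by rw [abs_of_neg (by omega), abs_of_neg (by omega)]; omega)
          linarith
        exact win_ge hA σ _ n fun l' _ _ => l3.le.trans (h2 l l' l0 (by omega))
    rcases lt_or_ge (i + n) p with hi' | hi'
    · obtain ⟨t, ht⟩ : ∃ t : ℕ, i + n + t = p - 1 := ⟨(p - 1 - (i + n)).toNat, by omega⟩
      by_cases hsm : ∀ l, i + n ≤ l → l < i + n + t → a l ≤ σ
      · left
        have e1 := win_le hA σ (i + n) t hsm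
        have e0 := hA (p - 1)
        rw [sub_add_cancel] at e0
        rw [ht] at e1
        have e2 := mul_exp_le (f2 (1 + t + n))
        have e3 : ‖T n i‖ = F (1 + t + n) * (W (i + n) * exp (A p - A (i + n))) := by
          rw [hT]
          simp only [F]
          rw [show p - ((1 + t + n : ℕ) : ℤ) = i by push_cast; omega,
            mul_mul_mul_comm, ← exp_add]
          congr 2; ring
        have e4 : W (i + n) * exp (A p - A (i + n)) ≤ G κ * exp (σ * κ) * exp (σ * t + σ) := by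
          calc _ ≤ (1 + SW) * exp (a (p - 1) + -σ + (σ * t + σ)) :=
                mul_le_mul (bW _) (exp_le_exp.2 (by linarith)) (exp_pos _).le (by positivity)
            _ = (1 + SW) * exp (a (p - 1)) * exp (-σ) * exp (σ * t + σ) := by
                rw [exp_add, exp_add (a (p - 1))]; ring
            _ ≤ _ := mul_le_mul_of_nonneg_right (σW.trans gκ') (exp_pos _).le
        rw [e3]
        refine (mul_le_mul e2 e4 (mul_nonneg (hW _) (exp_pos _).le) (by positivity)).trans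
          (le_of_eq ?_)
        rw [show (i - (p - μ)).natAbs = 1 + t + κ by omega, mul_assoc (G κ), ← exp_add,
          mul_mul_mul_comm, ← exp_add]
        congr 2
        push_cast
        rw [hnR]; ring
      · right
        push Not at hsm
        obtain ⟨l, l1, l2, l3⟩ := hsm
        have l0 : l < 0 := by
          by_contra hc
          have := hM' l (by rw [abs_of_nonneg (by omega), abs_of_nonneg (by omega)]; omega)
          linarith
        exact win_ge hA σ _ n fun l' _ _ => l3.le.trans (h3 l l' (by omega) l0)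
    left
    obtain ⟨m, rfl⟩ : ∃ m : ℕ, i = p - m := ⟨(p - i).toNat, by omega⟩
    obtain ⟨q, hq⟩ : ∃ q : ℕ, m + q = n := ⟨n - m, by omega⟩
    have hqR : (m : ℝ) + q = μ + κ := by rw [← hnR]; exact_mod_cast hq
    have e3 : ‖T n (p - m)‖ = F m * G q := by
      rw [hT]
      simp only [F, G]
      rw [show p - m + n = p + q by omega, mul_mul_mul_comm, ← exp_add]
      congr 2; ring
    rw [e3]
    rcases le_total m μ with hm | hm
    · refine (mul_le_mul (mul_exp_le (f1 m)) (mul_exp_le (g2 q)) (G0 _) (by positivity)).trans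
        (le_of_eq ?_)
      rw [show (p - m - (p - μ)).natAbs = μ - m by omega, mul_mul_mul_comm, ← exp_add,
        Nat.cast_sub hm]
      congr 2
      linear_combination (-(σ + 2)) * hqR
    · refine (mul_le_mul (mul_exp_le (f2 m)) (mul_exp_le (g1 q)) (G0 _) (by positivity)).trans
        (le_of_eq ?_)
      rw [show (p - m - (p - μ)).natAbs = m - μ by omega, mul_mul_mul_comm, ← exp_add,
        Nat.cast_sub hm]
      congr 2
      linear_combination (-σ) * hqR
  set g : ℤ → ℝ := fun i => F μ * G κ * (1 / 7 : ℝ) ^ (i - (p - μ)).natAbs +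
    (U i ^ 2 + W (i + n) ^ 2) * exp (-(σ * n)) with hg
  have sg : HasSum g (F μ * G κ * (4 / 3) + (SU + SW) * exp (-(σ * n))) :=
    (((Equiv.subRight (p - μ)).hasSum_iff.2 hasSum_geo).mul_left _).add
      ((sU.add ((Equiv.addRight (n : ℤ)).hasSum_iff.2 sW)).mul_right _)
  have bg : ∀ i, ‖T n i‖ ≤ g i := fun i => by
    rcases key i with h | h
    · refine h.trans (le_add_of_le_of_nonneg ?_ (by positivity))
      exact mul_le_mul_of_nonneg_left (exp_le_geo _) (by positivity)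
    · refine le_add_of_nonneg_of_le (by positivity) ?_
      rw [hT]
      refine mul_le_mul ?_ (exp_le_exp.2 (by linarith)) (exp_pos _).le (by positivity)
      nlinarith [sq_nonneg (U i - W (i + n)), mul_nonneg (hU i) (hW (i + n))]
  have main : ‖T n (p - μ)‖ = F μ * G κ := by
    rw [hT]
    simp only [F, G]
    rw [show p - μ + n = p + κ by omega, mul_mul_mul_comm, ← exp_add]
    congr 2; ring
  have fin := (hasSum_ite_sub_hasSum (hs n) (p - μ)).norm_le_of_bounded
    (hasSum_ite_sub_hasSum sg (p - μ)) fun i => by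
      split_ifs
      · simp
      · exact bg i
  rw [zero_sub, norm_neg, main] at fin
  have b1 := bg (p - μ)
  rw [main] at b1
  have b2 : (SU + SW) * exp (-(σ * n)) ≤ F μ * G κ / 2 := by
    have c1 := mul_le_mul fμ gκ (by positivity) (by positivity)
    have c2 : F μ * exp (σ * μ) * (G κ * exp (σ * κ)) = F μ * G κ * exp (σ * n) := by
      rw [mul_mul_mul_comm, ← exp_add, hnR, mul_add]
    have c3 : SU + SW ≤ F 0 * G k0 / 2 * exp σ := by
      have := mul_exp_le (t := 0) (σB.trans_eq (by rw [exp_zero, mul_one]))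
      simpa using this
    rw [exp_neg, ← div_eq_mul_inv, div_le_iff₀ (exp_pos _)]
    linarith
  have := mul_pos Fμ Gκ
  linarith

open Crest.Agent.H7.WS in
theorem domar_sep (a : ℤ → ℝ) (h1 : ∀ j : ℤ, 10 * |(j : ℝ)| ≤ a j)
    (h2 : ∀ i j : ℤ, 0 ≤ i → i ≤ j → a i ≤ a j) (h3 : ∀ i j : ℤ, j ≤ i → i < 0 → a i ≤ a j)
    (T : seqHilbert →L[ℂ] seqHilbert) (hT : IsWS T (fun j => exp (-a j)) 1) (u w : seqHilbert)
    (h : ∀ n : ℕ, inner ℂ w ((T ^ n) u) = 0) (j k : ℤ) (hjk : j ≤ k) (hu : u j ≠ 0) : w k = 0 := by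
  obtain ⟨A, hA⟩ : ∃ A : ℤ → ℝ, ∀ j, A (j + 1) = A j + a j := by
    refine ⟨fun j => ∑ i ∈ Finset.range j.toNat, a i - ∑ i ∈ Finset.range (-j).toNat, a (-(i + 1)),
      fun j => ?_⟩
    rcases le_or_gt 0 j with hj | hj
    · obtain ⟨n, rfl⟩ := Int.eq_ofNat_of_zero_le hj
      simp only []
      rw [show ((n : ℤ) + 1).toNat = n + 1 by omega, show (-((n : ℤ) + 1)).toNat = 0 by omega,
        show (-(n : ℤ)).toNat = 0 by omega, Int.toNat_natCast, Finset.sum_range_succ]
      ring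
    · obtain ⟨n, rfl⟩ : ∃ n : ℕ, j = -((n : ℤ) + 1) := ⟨(-j - 1).toNat, by omega⟩
      simp only []
      rw [show (-((n : ℤ) + 1) + 1).toNat = 0 by omega, show (-((n : ℤ) + 1)).toNat = 0 by omega,
        show (-(-((n : ℤ) + 1) + 1)).toNat = n by omega,
        show (-(-((n : ℤ) + 1))).toNat = n + 1 by omega, Finset.sum_range_succ]
      ring
  have hpow : ∀ (n : ℕ) (i : ℤ), (T ^ n) u (i + n) = (exp (A i - A (i + n)) : ℝ) * u i := by
    intro n i
    induction n with
    | zero => simp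
    | succ n ih =>
      rw [pow_succ', ContinuousLinearMap.mul_apply, hT,
        show i + ((n + 1 : ℕ) : ℤ) - 1 = i + n by push_cast; ring, ih,
        show i + ((n + 1 : ℕ) : ℤ) = i + n + 1 by push_cast; ring, hA, ← mul_assoc,
        ← Complex.ofReal_mul, ← exp_add]
      congr 3; ring
  have hs : ∀ n : ℕ, HasSum (fun i : ℤ => inner ℂ (w (i + n)) ((T ^ n) u (i + n))) 0 := fun n => by
    have := lp.hasSum_inner (𝕜 := ℂ) w ((T ^ n) u)
    rw [h] at this
    exact (Equiv.addRight (n : ℤ)).hasSum_iff.2 this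
  have hlt : ∀ j k, j < k → u j ≠ 0 → w k = 0 := fun j k hjk hu => by
    by_contra hw
    refine core a A hA h1 h2 h3 (fun j => ‖u j‖) (fun j => ‖w j‖) (fun _ => norm_nonneg _)
      (fun _ => norm_nonneg _) _ _ (hasSum_normsq u) (hasSum_normsq w) _ (fun n i => ?_) hs j k hjk
      (norm_pos_iff.2 hu) (norm_pos_iff.2 hw)
    rw [hpow, RCLike.inner_apply, norm_mul, norm_mul, Complex.norm_real, Real.norm_eq_abs,
      abs_of_pos (exp_pos _), RCLike.norm_conj]
    ring
  by_contra hw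
  obtain rfl : j = k := by
    by_contra hne
    exact hw (hlt j k (by omega) hu)
  have h0 := hs 0
  simp only [Nat.cast_zero, add_zero, pow_zero, ContinuousLinearMap.one_apply] at h0
  have h4 := h0.unique (hasSum_single j fun i hi => by
    rcases lt_or_gt_of_ne hi with hi | hi
    · have : u i = 0 := by
        by_contra hc
        exact hw (hlt i j hi hc)
      simp [this]
    · simp [hlt j i hi hu])
  simp [hu, hw] at h4

open Crest.Agent.H7.WS in
theorem unicell (a : ℤ → ℝ) (h1 : ∀ j : ℤ, 10 * |(j : ℝ)| ≤ a j)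
    (h2 : ∀ i j : ℤ, 0 ≤ i → i ≤ j → a i ≤ a j) (h3 : ∀ i j : ℤ, j ≤ i → i < 0 → a i ≤ a j)
    (T : seqHilbert →L[ℂ] seqHilbert)
    (hT : ∀ j, T (basisVec j) = ((Real.exp (-a j) : ℝ) : ℂ) • basisVec (j + 1))
    (W : Submodule ℂ seqHilbert) (hW : IsClosed (W : Set seqHilbert)) :
    (∀ v ∈ W, T v ∈ W) ↔ (W = ⊥ ∨ W = ⊤ ∨ ∃ h : ℤ, W = tailSpace h) := by
  have hT' : IsWS T (fun j => exp (-a j)) 1 := isWS_of_basis hT
  constructor
  · intro hinv
    have hb : ∀ u ∈ W, ∀ j k, j ≤ k → u j ≠ 0 → basisVec k ∈ W := fun u hu j k hjk hj => by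
      have := hW.completeSpace_coe
      rw [← W.orthogonal_orthogonal, Submodule.mem_orthogonal]
      intro w hw
      have hn : ∀ n : ℕ, (T ^ n) u ∈ W := fun n => by
        induction n with
        | zero => simpa using hu
        | succ n ih => rw [pow_succ']; exact hinv _ ih
      have := domar_sep a h1 h2 h3 T hT' u w
        (fun n => inner_eq_zero_symm.1 ((Submodule.mem_orthogonal W w).1 hw _ (hn n))) j k hjk hj
      rw [basisVec, lp.inner_single_right, this]
      simp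
    by_cases hb0 : ∃ j : ℤ, ∃ u ∈ W, u j ≠ 0
    · right
      by_cases hbd : ∃ b : ℤ, ∀ j, (∃ u ∈ W, u j ≠ 0) → b ≤ j
      · right
        obtain ⟨h, ⟨u, hu, huh⟩, hmin⟩ := Int.exists_least_of_bdd hbd hb0
        refine ⟨h, le_antisymm (fun v hv => mem_tailSpace.2 fun i hi => ?_) fun v hv =>
          mem_of_basis hW fun i hi => hb u hu h i ?_ huh⟩
        · by_contra hc
          exact absurd (hmin i ⟨v, hv, hc⟩) (by omega)
        · by_contra hc
          exact hi (mem_tailSpace.1 hv i (by omega))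
      · left
        push Not at hbd
        refine top_unique fun v _ => mem_of_basis hW fun i _ => ?_
        obtain ⟨j, ⟨u, hu, huj⟩, hj⟩ := hbd i
        exact hb u hu j i hj.le huj
    · left
      push Not at hb0
      refine bot_unique fun v hv => (Submodule.mem_bot ℂ).2 (lp.ext (funext fun i => ?_))
      simpa using hb0 i v hv
  · rintro (rfl | rfl | ⟨h, rfl⟩) v hv
    · rw [Submodule.mem_bot] at hv ⊢; simp [hv]
    · trivial
    · exact mem_tailSpace.2 fun i hi => mem_tailSpace.1 (hT'.map_tail hv) i (by omega)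

end Crest.Agent.H5.HS
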