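import Mathlib
import Crest.Prelude.Def_TwoAdicShift

/-! Reduction of S0148 to the data of S0150. -/

set_option autoImplicit false

open Filter Topology MeasureTheory TopologicalSpace
open Crest.AnalysisR.TwoAdic
attribute [local instance] Crest.AnalysisR.TwoAdic.borelTwoAdic
  Crest.AnalysisR.TwoAdic.borelSpace_twoAdic

namespace Crest.Agent.H5.HS

theorem exists_basis_nat (H : Type*) [NormedAddCommGroup H] [InnerProductSpace ℂ H]
    [CompleteSpace H] [SeparableSpace H] (hH : ¬ FiniteDimensional ℂ H) :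
    Nonempty (HilbertBasis ℕ ℂ H) := by
  obtain ⟨w, b, hb⟩ := exists_hilbertBasis ℂ H
  have ho := b.orthonormal
  have hc : Countable w := by
    refine Pairwise.countable_of_isOpen_disjoint (s := fun i : w => Metric.ball (b i) (1 / 2))
      (fun i j hij => ?_) (fun _ => Metric.isOpen_ball) fun i => ⟨b i, by simp⟩
    apply Metric.ball_disjoint_ball
    have h1 : ‖b i - b j‖ ^ 2 = 2 := by
      rw [@norm_sub_sq ℂ, ho.1, ho.1, ho.2 hij]
      norm_num
    rw [dist_eq_norm]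
    nlinarith [norm_nonneg (b i - b j)]
  have hi : Infinite w := by
    by_contra hf
    have : Finite w := not_infinite_iff_finite.1 hf
    have := Fintype.ofFinite w
    exact hH (Module.Basis.finiteDimensional_of_finite b.toOrthonormalBasis.toBasis)
  obtain ⟨e⟩ : Nonempty (ℕ ≃ w) := inferInstance
  refine ⟨HilbertBasis.mk (ho.comp e e.injective) ?_⟩
  rw [e.surjective.range_comp]
  exact b.dense_span.ge

theorem transport {H K : Type*} [NormedAddCommGroup H] [InnerProductSpace ℂ H]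
    [NormedAddCommGroup K] [InnerProductSpace ℂ K] (e : H ≃ₗᵢ[ℂ] K) (S : K →L[ℂ] K) (h0 : S ≠ 0)
    (hl : Tendsto (fun n : ℕ => ‖S ^ n‖ ^ (1 / (n : ℝ))) atTop (𝓝 0))
    (hi : ∀ V : Submodule ℂ K, IsClosed (V : Set K) →
        (∀ A : K →L[ℂ] K, A * S = S * A → ∀ v ∈ V, A v ∈ V) → V = ⊥ ∨ V = ⊤) :
    ∃ T : H →L[ℂ] H, T ≠ 0 ∧
      Tendsto (fun n : ℕ => ‖T ^ n‖ ^ (1 / (n : ℝ))) atTop (𝓝 0) ∧
      ∀ V : Submodule ℂ H, IsClosed (V : Set H) →
        (∀ A : H →L[ℂ] H, A * T = T * A → ∀ v ∈ V, A v ∈ V) → V = ⊥ ∨ V = ⊤ := by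
  let c : (K →L[ℂ] K) → (H →L[ℂ] H) := fun A =>
    (e.symm : K →L[ℂ] H) ∘L A ∘L (e : H →L[ℂ] K)
  have hc : ∀ A x, c A x = e.symm (A (e x)) := fun _ _ => rfl
  have hmul : ∀ A B, c (A * B) = c A * c B := fun A B => by
    ext x; simp [hc]
  have hpow : ∀ n : ℕ, c S ^ n = c (S ^ n) := fun n => by
    induction n with
    | zero => ext x; simp [hc]
    | succ n ih => rw [pow_succ, pow_succ, hmul, ih]
  have hnorm : ∀ A, ‖c A‖ ≤ ‖A‖ := fun A => by
    refine ContinuousLinearMap.opNorm_le_bound _ (norm_nonneg _) fun x => ?_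
    rw [hc, e.symm.norm_map, ← e.norm_map x]
    exact A.le_opNorm _
  refine ⟨c S, fun h => h0 ?_, ?_, fun V hV hA => ?_⟩
  · ext y
    have := congrArg (fun T : H →L[ℂ] H => e (T (e.symm y))) h
    simpa [hc] using this
  · refine squeeze_zero (fun n => by positivity) (fun n => ?_) hl
    rw [hpow]
    exact Real.rpow_le_rpow (norm_nonneg _) (hnorm _) (by positivity)
  · have key := hi (V.comap (e.symm : K →L[ℂ] H).toLinearMap)
      (hV.preimage e.symm.continuous) fun A hAS v hv => by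
        have := hA (c A) (by rw [← hmul, ← hmul, hAS]) _ hv
        simpa [hc] using this
    rcases key with h | h
    · left
      rw [eq_bot_iff]
      intro v hv
      have : e v ∈ V.comap (e.symm : K →L[ℂ] H).toLinearMap := by simpa using hv
      rw [h] at this
      simpa using this
    · right
      rw [eq_top_iff]
      intro v _
      have : e v ∈ V.comap (e.symm : K →L[ℂ] H).toLinearMap := by rw [h]; trivial
      simpa using this

instance haar_prob : IsProbabilityMeasure haarTwoAdic :=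
  ⟨by
    have := Measure.addHaarMeasure_self (K₀ := (⊤ : PositiveCompacts ℤ_[2]))
    simpa [haarTwoAdic] using this⟩

/-- the standard basis of `ℓ²(ℤ)` -/
noncomputable def stdBasis : HilbertBasis ℤ ℂ seqHilbert := default

theorem seq_sep : SeparableSpace seqHilbert := by
  have h1 : IsSeparable (Set.range stdBasis) := (Set.countable_range _).isSeparable
  have h2 := (h1.span (R := ℂ)).closure
  rw [← Submodule.topologicalClosure_coe, stdBasis.dense_span] at h2
  exact isSeparable_univ_iff.1 (by simpa using h2)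

theorem seq_inf : ¬ FiniteDimensional ℂ seqHilbert := fun _ =>
  Module.Finite.not_linearIndependent_of_infinite _ stdBasis.orthonormal.linearIndependent

theorem fibre_sep : SeparableSpace fibreSpace := by
  have := seq_sep
  have : Fact ((2 : ENNReal) ≠ ⊤) := ⟨by simp⟩
  infer_instance

theorem fibre_inf : ¬ FiniteDimensional ℂ fibreSpace := fun _ => by
  apply seq_inf
  refine FiniteDimensional.of_injective (Lp.constₗ 2 haarTwoAdic ℂ : seqHilbert →ₗ[ℂ] fibreSpace) ?_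
  rw [injective_iff_map_eq_zero]
  intro c hc
  have h := Lp.norm_const' (p := 2) (μ := haarTwoAdic) (c := c) (by simp) (by simp)
  have h0 : Lp.const 2 haarTwoAdic c = 0 := hc
  rw [h0] at h
  simpa using h.symm

/-- multiplication operators -/
theorem exists_mult (g : ℤ_[2] → ℂ) (hg : Measurable g) (C : ℝ) (hC : ∀ x, ‖g x‖ ≤ C) :
    ∃ M : fibreSpace →L[ℂ] fibreSpace, ∀ f : fibreSpace, ∀ᵐ x ∂haarTwoAdic,
      (M f : ℤ_[2] → seqHilbert) x = g x • (f : ℤ_[2] → seqHilbert) x := by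
  have hm : MemLp g ⊤ haarTwoAdic :=
    memLp_top_of_bound hg.aestronglyMeasurable C (Eventually.of_forall hC)
  refine ⟨(ContinuousLinearMap.lsmul ℂ ℂ).holderL haarTwoAdic ⊤ 2 2 hm.toLp, fun f => ?_⟩
  rw [ContinuousLinearMap.holderL_apply_apply]
  filter_upwards [ContinuousLinearMap.coeFn_holder (r := 2) (ContinuousLinearMap.lsmul ℂ ℂ)
    hm.toLp f, hm.coeFn_toLp] with x h1 h2
  rw [h1, h2]
  rfl

theorem root_tendsto {a : ℕ → ℝ} (h0 : ∀ n, 0 ≤ a n)
    (h : ∀ n : ℕ, 1 ≤ n → a n ≤ Real.exp (-10 * (((n + 1) ^ 2 / 4 : ℕ) : ℝ))) :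
    Tendsto (fun n : ℕ => a n ^ (1 / (n : ℝ))) atTop (𝓝 0) := by
  have hl : Tendsto (fun n : ℕ => Real.exp (-(n : ℝ))) atTop (𝓝 0) :=
    Real.tendsto_exp_neg_atTop_nhds_zero.comp tendsto_natCast_atTop_atTop
  refine squeeze_zero' (Eventually.of_forall fun n => Real.rpow_nonneg (h0 n) _) ?_ hl
  filter_upwards [eventually_ge_atTop 1] with n hn
  have hn0 : (0 : ℝ) < n := by exact_mod_cast hn
  have h1 : n * n ≤ 10 * ((n + 1) ^ 2 / 4) := by
    have : (n + 1) ^ 2 = n * n + 2 * n + 1 := by ring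
    omega
  have h2 : (n : ℝ) * n ≤ 10 * (((n + 1) ^ 2 / 4 : ℕ) : ℝ) := by exact_mod_cast h1
  calc a n ^ (1 / (n : ℝ)) ≤ Real.exp (-(n * n)) ^ (1 / (n : ℝ)) :=
        Real.rpow_le_rpow (h0 n) ((h n hn).trans (Real.exp_le_exp.2 (by linarith)))
          (by positivity)
    _ = Real.exp (-(n : ℝ)) := by
        rw [← Real.exp_mul]
        congr 1
        field_simp

/-- S0148 from the data of S0150 -/
theorem s0148_of (Sfib : ℤ_[2] → (seqHilbert →L[ℂ] seqHilbert))
    (S V : fibreSpace →L[ℂ] fibreSpace)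
    (hS : ∀ f : fibreSpace, ∀ᵐ x ∂haarTwoAdic,
      (S f : ℤ_[2] → seqHilbert) x = Sfib x ((f : ℤ_[2] → seqHilbert) x))
    (h0 : S ≠ 0)
    (hn : ∀ n : ℕ, 1 ≤ n → ‖S ^ n‖ ≤ Real.exp (-10 * (((n + 1) ^ 2 / 4 : ℕ) : ℝ)))
    (hVS : V * S = S * V)
    (ht : ∀ W : Submodule ℂ fibreSpace, IsClosed (W : Set fibreSpace) →
        (∀ f ∈ W, S f ∈ W) → (∀ f ∈ W, V f ∈ W) →
        (∀ g : ℤ_[2] → ℂ, Measurable g → (∃ C : ℝ, ∀ x, ‖g x‖ ≤ C) →
          ∀ f ∈ W, ∀ f' : fibreSpace,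
            (∀ᵐ x ∂haarTwoAdic, (f' : ℤ_[2] → seqHilbert) x =
              g x • (f : ℤ_[2] → seqHilbert) x) → f' ∈ W) →
        W = ⊥ ∨ W = ⊤)
    (H : Type*) [NormedAddCommGroup H] [InnerProductSpace ℂ H] [CompleteSpace H]
    [TopologicalSpace.SeparableSpace H] (hH : ¬ FiniteDimensional ℂ H) :
    ∃ T : H →L[ℂ] H, T ≠ 0 ∧
      Tendsto (fun n : ℕ => ‖T ^ n‖ ^ (1 / (n : ℝ))) atTop (𝓝 0) ∧
      ∀ V : Submodule ℂ H, IsClosed (V : Set H) →
        (∀ A : H →L[ℂ] H, A * T = T * A → ∀ v ∈ V, A v ∈ V) → V = ⊥ ∨ V = ⊤ := by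
  have := fibre_sep
  obtain ⟨b⟩ := exists_basis_nat H hH
  obtain ⟨b'⟩ := exists_basis_nat fibreSpace fibre_inf
  refine transport (b.repr.trans b'.repr.symm) S h0 (root_tendsto (fun _ => norm_nonneg _) hn)
    fun W hW hA => ht W hW (hA S rfl) (hA V hVS) ?_
  rintro g hg ⟨C, hC⟩ f hf f' hf'
  obtain ⟨M, hM⟩ := exists_mult g hg C hC
  have e : f' = M f := Lp.ext (by
    filter_upwards [hf', hM f] with x h1 h2
    rw [h1, h2])
  rw [e]
  refine hA M ?_ f hf
  ext1 u
  refine Lp.ext ?_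
  filter_upwards [hM (S u), hS u, hS (M u), hM u] with x h1 h2 h3 h4
  change (M (S u) : ℤ_[2] → seqHilbert) x = (S (M u) : ℤ_[2] → seqHilbert) x
  rw [h1, h2, h3, h4, map_smul]

end Crest.Agent.H5.HS
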