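import Crest.Agent.H5.HS.Red

/-! Transitivity part of S0150, from fibre unicellularity and positivity of the weights `b`. -/

set_option autoImplicit false

open Filter Topology MeasureTheory TopologicalSpace
open Crest.AnalysisR.TwoAdic
attribute [local instance] Crest.AnalysisR.TwoAdic.borelTwoAdic
  Crest.AnalysisR.TwoAdic.borelSpace_twoAdic

namespace Crest.Agent.H5.HS

instance haar_isHaar : haarTwoAdic.IsAddHaarMeasure := by
  unfold haarTwoAdic; infer_instance

theorem coord_eq_inner (v : seqHilbert) (j : ℤ) : v j = inner ℂ (basisVec j) v := by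
  rw [basisVec, lp.inner_single_left]; simp

theorem continuous_coord (j : ℤ) : Continuous fun v : seqHilbert => v j := by
  simp only [coord_eq_inner]; fun_prop

theorem basisVec_apply (i j : ℤ) : basisVec i j = if j = i then 1 else 0 := by
  simp [basisVec, lp.single_apply, Pi.single_apply]

/-- coordinates of a weighted shift -/
theorem shift_coord (A : seqHilbert →L[ℂ] seqHilbert) (c : ℤ → ℂ) (d : ℤ)
    (hA : ∀ j, A (basisVec j) = c j • basisVec (j + d)) (v : seqHilbert) (j : ℤ) :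
    A v (j + d) = c j * v j := by
  have h1 := (lp.hasSum_single (E := fun _ : ℤ => ℂ) (p := 2) (by simp) v).mapL
    ((innerSL ℂ (basisVec (j + d))) ∘L A)
  have h2 : ∀ i, ((innerSL ℂ (basisVec (j + d))) ∘L A) (lp.single 2 i (v i)) =
      if i = j then c j * v j else 0 := fun i => by
    have e : (lp.single 2 i (v i) : seqHilbert) = v i • basisVec i := by
      rw [basisVec, ← lp.single_smul]; simp
    rw [e, map_smul, ContinuousLinearMap.comp_apply, hA, innerSL_apply_apply, ← coord_eq_inner,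
      lp.coeFn_smul, Pi.smul_apply, basisVec_apply]
    by_cases h : i = j
    · subst h; simp [mul_comm]
    · have : ¬ (j + d = i + d) := fun h' => h (by omega)
      simp [h, this]
  simp only [h2] at h1
  rw [coord_eq_inner]
  exact h1.unique (hasSum_ite_eq j _) |>.symm ▸ rfl

theorem basisVec_mem_tail {h k : ℤ} (hk : h ≤ k) : basisVec k ∈ tailSpace h :=
  Submodule.le_topologicalClosure _ (Submodule.subset_span ⟨⟨k, hk⟩, rfl⟩)

theorem tail_coord {h j : ℤ} {v : seqHilbert} (hv : v ∈ tailSpace h) (hj : j < h) : v j = 0 := by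
  have hle : tailSpace h ≤ LinearMap.ker (innerSL ℂ (basisVec j)).toLinearMap := by
    refine Submodule.topologicalClosure_minimal _ (Submodule.span_le.2 ?_)
      (ContinuousLinearMap.isClosed_ker _)
    rintro _ ⟨⟨i, hi⟩, rfl⟩
    change inner ℂ (basisVec j) (basisVec i) = 0
    rw [← coord_eq_inner, basisVec_apply, if_neg (by omega)]
  rw [coord_eq_inner]
  exact hle hv

theorem fibre_sep_supp (A : seqHilbert →L[ℂ] seqHilbert)
    (huni : ∀ W : Submodule ℂ seqHilbert, IsClosed (W : Set seqHilbert) →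
      (∀ v ∈ W, A v ∈ W) → (W = ⊥ ∨ W = ⊤ ∨ ∃ h : ℤ, W = tailSpace h))
    (u w : seqHilbert) (h : ∀ n : ℕ, inner ℂ w ((A ^ n) u) = 0) (j k : ℤ) (hjk : j ≤ k)
    (hu : u j ≠ 0) : w k = 0 := by
  let W : Submodule ℂ seqHilbert :=
    ⨅ n : ℕ, LinearMap.ker ((innerSL ℂ w) ∘L (A ^ n)).toLinearMap
  have hW : ∀ v, v ∈ W ↔ ∀ n : ℕ, inner ℂ w ((A ^ n) v) = 0 := fun v => by
    simp only [W, Submodule.mem_iInf, LinearMap.mem_ker]
    rfl
  have hcl : IsClosed (W : Set seqHilbert) := by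
    simp only [W, Submodule.coe_iInf]
    exact isClosed_iInter fun n => ContinuousLinearMap.isClosed_ker _
  have hk : basisVec k ∈ W → w k = 0 := fun hk => by
    have := (hW _).1 hk 0
    rw [coord_eq_inner]
    exact inner_eq_zero_symm.1 (by simpa using this)
  rcases huni W hcl (fun v hv => (hW _).2 fun n => by
    have := (hW _).1 hv (n + 1)
    rwa [pow_succ] at this) with h1 | h1 | ⟨t, h1⟩
  · have : u ∈ W := (hW _).2 h
    rw [h1, Submodule.mem_bot] at this
    simp [this] at hu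
  · exact hk (by rw [h1]; trivial)
  · have hu' : u ∈ tailSpace t := h1 ▸ (hW _).2 h
    refine hk (h1 ▸ basisVec_mem_tail ?_)
    by_contra hc
    exact hu (tail_coord hu' (by omega))

theorem mp_add (t : ℤ_[2]) : MeasurePreserving (fun x => x + t) haarTwoAdic haarTwoAdic :=
  measurePreserving_add_right _ t

theorem ergodic_succ : Ergodic (fun x : ℤ_[2] => 1 + x) haarTwoAdic := by
  apply ergodic_add_left_of_denseRange_nsmul
  simpa using PadicInt.denseRange_natCast (p := 2)

theorem measurable_coord (f : fibreSpace) (k : ℤ) :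
    Measurable fun x => (f : ℤ_[2] → seqHilbert) x k :=
  ((continuous_coord k).comp_stronglyMeasurable (Lp.stronglyMeasurable f)).measurable

/-- the transitivity clause of S0150 -/
theorem trans_of (b : ℤ → ℤ_[2] → ℝ) (Sfib Vfib : ℤ_[2] → (seqHilbert →L[ℂ] seqHilbert))
    (S V : fibreSpace →L[ℂ] fibreSpace)
    (hS : ∀ f : fibreSpace, ∀ᵐ x ∂haarTwoAdic,
      (S f : ℤ_[2] → seqHilbert) x = Sfib x ((f : ℤ_[2] → seqHilbert) x))
    (huni : ∀ x, ∀ W : Submodule ℂ seqHilbert, IsClosed (W : Set seqHilbert) →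
      (∀ v ∈ W, Sfib x v ∈ W) → (W = ⊥ ∨ W = ⊤ ∨ ∃ h : ℤ, W = tailSpace h))
    (hVb : ∀ x j, Vfib x (basisVec j) = (b j x : ℂ) • basisVec (j - 1))
    (hV : ∀ f : fibreSpace, ∀ᵐ x ∂haarTwoAdic,
      (V f : ℤ_[2] → seqHilbert) (x + 1) = Vfib x ((f : ℤ_[2] → seqHilbert) x))
    (hb : ∀ᵐ x ∂haarTwoAdic, ∀ j, 0 < b j x)
    (W : Submodule ℂ fibreSpace) (hW : IsClosed (W : Set fibreSpace))
    (hWS : ∀ f ∈ W, S f ∈ W) (hWV : ∀ f ∈ W, V f ∈ W)
    (hWg : ∀ g : ℤ_[2] → ℂ, Measurable g → (∃ C : ℝ, ∀ x, ‖g x‖ ≤ C) →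
      ∀ f ∈ W, ∀ f' : fibreSpace,
        (∀ᵐ x ∂haarTwoAdic, (f' : ℤ_[2] → seqHilbert) x = g x • (f : ℤ_[2] → seqHilbert) x) →
          f' ∈ W) :
    W = ⊥ ∨ W = ⊤ := by
  by_cases h0 : W = ⊥
  · exact Or.inl h0
  right
  obtain ⟨f₀, hf₀, hf₀0⟩ := Submodule.exists_mem_ne_zero_of_ne_bot h0
  have : CompleteSpace W := hW.completeSpace_coe
  rw [← Submodule.orthogonal_eq_bot_iff, eq_bot_iff]
  intro g hg
  -- pointwise orthogonality
  have h1 : ∀ f ∈ W, ∀ᵐ x ∂haarTwoAdic,
      inner ℂ ((g : ℤ_[2] → seqHilbert) x) ((f : ℤ_[2] → seqHilbert) x) = 0 := by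
    intro f hf
    refine (L2.integrable_inner (𝕜 := ℂ) g f).ae_eq_zero_of_forall_setIntegral_eq_zero
      fun s hs _ => ?_
    have hm : Measurable (s.indicator fun _ => (1 : ℂ)) := measurable_const.indicator hs
    have hbd : ∀ x, ‖s.indicator (fun _ => (1 : ℂ)) x‖ ≤ 1 := fun x => by
      by_cases hx : x ∈ s <;> simp [hx]
    obtain ⟨M, hM⟩ := exists_mult _ hm 1 hbd
    have h2 := Submodule.inner_left_of_mem_orthogonal (hWg _ hm ⟨1, hbd⟩ f hf (M f) (hM f)) hg
    rw [L2.inner_def] at h2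
    rw [← integral_indicator hs, ← h2]
    refine integral_congr_ae ?_
    filter_upwards [hM f] with x hx
    rw [hx]
    by_cases hxs : x ∈ s <;> simp [hxs]
  have h2 : ∀ (n : ℕ) (f : fibreSpace), ∀ᵐ x ∂haarTwoAdic,
      ((S ^ n) f : ℤ_[2] → seqHilbert) x = (Sfib x ^ n) ((f : ℤ_[2] → seqHilbert) x) := by
    intro n f
    induction n with
    | zero => exact Eventually.of_forall fun x => rfl
    | succ n ih =>
      filter_upwards [ih, hS ((S ^ n) f)] with x e1 e2
      rw [pow_succ', pow_succ', ContinuousLinearMap.mul_apply, ContinuousLinearMap.mul_apply, e2,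
        e1]
  have h3 : ∀ (n : ℕ), ∀ f ∈ W, (S ^ n) f ∈ W := by
    intro n f hf
    induction n with
    | zero => exact hf
    | succ n ih => rw [pow_succ']; exact hWS _ ih
  have h4 : ∀ (m : ℕ), ∀ f ∈ W, ∀ᵐ x ∂haarTwoAdic, ∀ j k : ℤ, j - m ≤ k →
      (f : ℤ_[2] → seqHilbert) x j ≠ 0 → (g : ℤ_[2] → seqHilbert) (x + m) k = 0 := by
    intro m
    induction m with
    | zero =>
      intro f hf
      filter_upwards [ae_all_iff.2 fun n => h1 _ (h3 n f hf), ae_all_iff.2 fun n => h2 n f]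
        with x e1 e2 j k hjk hj
      rw [Nat.cast_zero, add_zero]
      exact fibre_sep_supp (Sfib x) (huni x) _ _ (fun n => by rw [← e2 n]; exact e1 n) j k
        (by simpa using hjk) hj
    | succ m ih =>
      intro f hf
      filter_upwards [(mp_add 1).quasiMeasurePreserving.ae (ih _ (hWV f hf)), hV f, hb]
        with x e1 e2 e3 j k hjk hj
      have e4 := e1 (j + -1) k (by push_cast at hjk; omega) (by
        rw [e2, shift_coord (Vfib x) (fun j => (b j x : ℂ)) (-1) (hVb x)]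
        exact mul_ne_zero (by exact_mod_cast (e3 j).ne') hj)
      rwa [show x + 1 + (m : ℤ_[2]) = x + ((m + 1 : ℕ) : ℤ_[2]) by push_cast; ring] at e4
  obtain ⟨j, hj⟩ : ∃ j, ¬ ∀ᵐ x ∂haarTwoAdic, (f₀ : ℤ_[2] → seqHilbert) x j = 0 := by
    by_contra hc
    push Not at hc
    refine hf₀0 (Lp.ext ?_)
    filter_upwards [ae_all_iff.2 hc, Lp.coeFn_zero seqHilbert 2 haarTwoAdic] with x e1 e2
    rw [e2]
    exact lp.ext (funext e1)
  have h5 : ∀ k, ∀ᵐ x ∂haarTwoAdic, (g : ℤ_[2] → seqHilbert) x k = 0 := by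
    intro k
    set m₀ := (j - k).toNat with hm₀
    let Z : Set ℤ_[2] := {x | ∀ m : ℕ, m₀ ≤ m → (g : ℤ_[2] → seqHilbert) (x + m) k = 0}
    have hZ : MeasurableSet Z := by
      simp only [Z, Set.setOf_forall]
      refine MeasurableSet.iInter fun m => MeasurableSet.iInter fun _ => ?_
      exact ((measurable_coord g k).comp (measurable_add_const _)) (measurableSet_singleton 0)
    have hsub : Z ⊆ (fun x : ℤ_[2] => 1 + x) ⁻¹' Z := fun x hx m hm => by
      have := hx (m + 1) (by omega)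
      rwa [show x + ((m + 1 : ℕ) : ℤ_[2]) = 1 + x + m by push_cast; ring] at this
    rcases ergodic_succ.ae_empty_or_univ_of_ae_le_preimage hZ.nullMeasurableSet
      hsub.eventuallyLE with h | h
    · refine absurd ?_ hj
      filter_upwards [ae_all_iff.2 fun m => h4 m f₀ hf₀, h] with x e1 e2
      by_contra hx
      have : x ∈ Z := fun m hm => e1 m j k (by omega) hx
      exact (cast e2 this : x ∈ (∅ : Set ℤ_[2]))
    · have h' : ∀ᵐ x ∂haarTwoAdic, x ∈ Z := by
        filter_upwards [h] with x e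
        exact cast e.symm (trivial : x ∈ (Set.univ : Set ℤ_[2]))
      filter_upwards [(mp_add (-(m₀ : ℤ_[2]))).quasiMeasurePreserving.ae h'] with x e
      simpa using e m₀ le_rfl
  rw [Submodule.mem_bot]
  refine Lp.ext ?_
  filter_upwards [ae_all_iff.2 h5, Lp.coeFn_zero seqHilbert 2 haarTwoAdic] with x e1 e2
  rw [e2]
  exact lp.ext (funext e1)

end Crest.Agent.H5.HS
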